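import Mathlib
import Vale.Agent.P196.Defs
import Vale.Agent.P186q.Gap
import Vale.Agent.P192.CarvDef
import Vale.Agent.P196c.ConnDef
import Vale.Agent.P186q.BType
import Vale.Agent.P186q.Carv

namespace Vale.Agent.Results.P186.ThinActions

open Vale.Agent.P196 Vale.Agent.P192 Vale.Agent.P196c

universe u v w

/-- Finitely presented (for example hyperbolic) groups without proper subgroups of finite index. -/
theorem result (G : Type u) [Group G] [Group.IsFinitelyPresented G]
    (hq : ∀ H : Subgroup G, H.FiniteIndex → H = ⊤) :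
    -- (1) growth of orbits
    (∀ S : Set G, S.Finite → Subgroup.closure S = ⊤ →
      ∃ c : ℝ, 0 < c ∧ ∃ N : ℕ, ∀ (X : Type v) [MulAction G X] (x : X), (∃ g : G, g • x ≠ x) →
        ∀ n : ℕ, N ≤ n →
          c * n * (Real.log n / Real.log (Real.log n)) ≤ (ball S x n).ncard) ∧
    -- (2) finite exhausting sets have boundaries tending to infinity
    (∀ (X : Type v) [MulAction G X] (S : Set G), Subgroup.closure S = ⊤ →
      ∀ x : X, (∃ g : G, g • x ≠ x) → ∀ C : ℕ,
        ∃ K : Set X, K.Finite ∧ K ⊆ MulAction.orbit G x ∧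
          ∀ F : Set X, F.Finite → K ⊆ F → F ⊆ MulAction.orbit G x → C < (bdry S F).ncard) ∧
    -- (3) connected subsets of sets with carvings of width `C` have bounded size, uniformly
    (∀ S : Set G, S.Finite → Subgroup.closure S = ⊤ → ∀ C : ℕ, ∃ B : ℕ,
      ∀ (X : Type v) [MulAction G X] (F : Set X), Carv S C F → ∀ A ⊆ F, Conn S A →
        A.ncard ≤ B) ∧
    -- (4) actions by piecewise `H`-permutations, `H` virtually cyclic, are trivial
    (∀ (X : Type v) (H : Type w) [Group H] (t : H), (Subgroup.zpowers t).FiniteIndex →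
      ∀ (ρ : G →* Equiv.Perm X) (σ : H →* Equiv.Perm X),
        (∀ g : G, ∃ K : Set H, K.Finite ∧ ∀ x : X, ∃ h ∈ K, ρ g x = σ h x) → ρ = 1) ∧
    -- (5) homomorphisms to topological full groups are trivial
    (∀ (X : Type v) [TopologicalSpace X] (φ : X ≃ₜ X) (ρ : G →* (X ≃ₜ X)),
      (∀ g : G, ρ g ∈ topFullGroup φ) → ρ = 1) ∧
    -- (6) actions of bounded type are trivial
    (∀ (X : Type v) [MulAction G X] (E : ℕ → X → X → Prop),
      -- an increasing sequence of equivalence relations with finite classes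
      (∀ n, Equivalence (E n)) → (∀ n x y, E n x y → E (n + 1) x y) →
      (∀ n x, {y | E n x y}.Finite) →
      -- every element moves a bounded number of points of each class of `E n` out of the class
      (∀ g : G, ∃ C : ℕ, ∀ n x, {y | E n x y ∧ ¬ E n y (g • y)}.ncard ≤ C) →
      -- every element has finitely many singular points
      (∀ g : G, {x : X | ∀ n, ¬ E n x (g • x)}.Finite) →
        ∀ (g : G) (x : X), g • x = x) := by
  have : Vale.Agent.P186q.NoFin G := by
    refine ⟨fun n f => ?_⟩
    have h1 : f.ker = ⊤ := hq f.ker (Subgroup.finiteIndex_ker f)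
    ext1 g
    have h2 : g ∈ f.ker := h1 ▸ Subgroup.mem_top g
    exact h2
  refine ⟨?_, ?_, ?_, ?_, ?_, ?_⟩
  · intro S hSf hS
    exact Vale.Agent.P186q.growth_gap S hSf hS
  · intro X _ S hS x hx C
    exact Vale.Agent.P186q.exhaust S hS x hx C
  · intro S hSf hS C
    exact Vale.Agent.P186q.carving_simple S hSf hS C
  · intro X H _ t ht ρ σ hρ
    exact Vale.Agent.P186q.piecewise_trivial ρ σ t ht hρ
  · intro X _ φ ρ hρ
    exact Vale.Agent.P186q.full_group_trivial φ ρ hρ
  · intro X _ E hE hmono hfin hbd hsing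
    exact Vale.Agent.P186q.bt_trivial E hE hmono hfin hbd hsing

end Vale.Agent.Results.P186.ThinActions
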